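import Vale.Agent.P088.R2.H464.B.Slo
import Vale.Agent.P088.R2.H961.F.HyPb

/-!
# P088, zone B1: helper464's structure `Hs` for the family of cells

The first tensor depends on `x` only, the second on `y` only.
-/

open Finset Set Filter
open scoped ContDiff Topology

noncomputable section

namespace Vale.Agent.P088.R2.H942.B1

open Vale.Agent.P088.LR Vale.Agent.P088.HY
open Vale.Agent.P088.R2.H464.B (Ge Hs sX sY tS idn Dx Dy)
open Vale.Agent.P088.R2.H961.F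

variable {α : Type} {n : ℕ} (c : α → CD n) (Z : α → Set (VV n)) (hZ : ∀ x, IsOpen (Z x))
  (s₁ s₂ : α → MF n)

/-- The first tensor in the frame. -/
def t1 (x : α) (i j : Fin n) (y : V n) : ℝ :=
  ∑ k, ∑ l, (c x).N i k * (c x).N j l * s₁ x y k l

theorem sX_eq (x : α) (i j : Fin n) :
    sX (fs c s₁ s₂) (fd c s₁ s₂) i j x = fun z => t1 c s₁ x i j z.1 := by
  funext z
  show idn i j x z + fs c s₁ s₂ i j x z + fd c s₁ s₂ i j x z = _
  unfold idn fs fd t1
  ring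

theorem sY_eq (x : α) (i j : Fin n) :
    sY (fs c s₁ s₂) (fd c s₁ s₂) i j x = fun z => t1 c s₂ x i j z.2 := by
  funext z
  show idn i j x z + fs c s₁ s₂ i j x z - fd c s₁ s₂ i j x z = _
  unfold idn fs fd t1
  ring

variable {s₁ s₂}

theorem t1_sm {s : α → MF n} (h : ∀ x i j, ContDiff ℝ ∞ fun w => s x w i j) (x : α)
    (i j : Fin n) : ContDiff ℝ ∞ (t1 c s x i j) := by
  unfold t1
  exact ContDiff.sum fun k _ => ContDiff.sum fun l _ => contDiff_const.mul (h x k l)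

theorem t1_symm {s : α → MF n} (y : ∀ x w i j, s x w i j = s x w j i) (x : α) (i j : Fin n)
    (w : V n) : t1 c s x i j w = t1 c s x j i w := by
  unfold t1
  rw [Finset.sum_comm]
  refine Finset.sum_congr rfl fun k _ => Finset.sum_congr rfl fun l _ => ?_
  rw [y x w l k]
  ring

theorem a_eq (x : α) (i : Fin n) : (Gf c Z hZ).a x i =
    ((1 / 2 : ℝ) • (c x).M.col i, -((1 / 2 : ℝ) • (c x).M.col i)) := rfl

theorem b_eq (x : α) (i : Fin n) : (Gf c Z hZ).b x i = ((c x).M.col i, (c x).M.col i) := rfl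

theorem dx_eq (x : α) (i : Fin n) (f : α → VV n → ℝ) (z : VV n) :
    Dx (Gf c Z hZ) i f x z = fderiv ℝ (f x) z ((c x).M.col i, 0) := by
  have e : (((c x).M.col i, 0) : VV n) = (Gf c Z hZ).a x i + (1 / 2 : ℝ) • (Gf c Z hZ).b x i := by
    rw [a_eq, b_eq]
    refine Prod.ext ?_ ?_
    · show (c x).M.col i = (1 / 2 : ℝ) • (c x).M.col i + (1 / 2 : ℝ) • (c x).M.col i
      rw [← add_smul]; norm_num
    · show (0 : V n) = -((1 / 2 : ℝ) • (c x).M.col i) + (1 / 2 : ℝ) • (c x).M.col i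
      rw [neg_add_cancel]
  rw [e, map_add, map_smul]
  rfl

theorem dy_eq (x : α) (i : Fin n) (f : α → VV n → ℝ) (z : VV n) :
    Dy (Gf c Z hZ) i f x z = fderiv ℝ (f x) z (0, (c x).M.col i) := by
  have e : ((0, (c x).M.col i) : VV n) = -(Gf c Z hZ).a x i + (1 / 2 : ℝ) • (Gf c Z hZ).b x i := by
    rw [a_eq, b_eq]
    refine Prod.ext ?_ ?_
    · show (0 : V n) = -((1 / 2 : ℝ) • (c x).M.col i) + (1 / 2 : ℝ) • (c x).M.col i
      rw [neg_add_cancel]
    · show (c x).M.col i = -(-((1 / 2 : ℝ) • (c x).M.col i)) + (1 / 2 : ℝ) • (c x).M.col i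
      rw [neg_neg, ← add_smul]; norm_num
  rw [e, map_add, map_neg, map_smul]
  rfl

theorem fd_snd {g : V n → ℝ} (hg : ContDiff ℝ ∞ g) (z : VV n) (v : V n) :
    fderiv ℝ (fun z : VV n => g z.2) z (v, 0) = 0 := by
  have h1 : HasFDerivAt (fun z : VV n => g z.2)
      ((fderiv ℝ g z.2).comp (ContinuousLinearMap.snd ℝ (V n) (V n))) z :=
    HasFDerivAt.comp z (hg.differentiable (by simp)).differentiableAt.hasFDerivAt hasFDerivAt_snd
  rw [h1.fderiv]
  show fderiv ℝ g z.2 0 = 0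
  exact map_zero _

theorem fd_fst {g : V n → ℝ} (hg : ContDiff ℝ ∞ g) (z : VV n) (v : V n) :
    fderiv ℝ (fun z : VV n => g z.1) z (0, v) = 0 := by
  have h1 : HasFDerivAt (fun z : VV n => g z.1)
      ((fderiv ℝ g z.1).comp (ContinuousLinearMap.fst ℝ (V n) (V n))) z :=
    HasFDerivAt.comp z (hg.differentiable (by simp)).differentiableAt.hasFDerivAt hasFDerivAt_fst
  rw [h1.fderiv]
  show fderiv ℝ g z.1 0 = 0
  exact map_zero _

theorem fs_sm (h₁ : ∀ x i j, ContDiff ℝ ∞ fun w => s₁ x w i j)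
    (h₂ : ∀ x i j, ContDiff ℝ ∞ fun w => s₂ x w i j) (x : α) (i j : Fin n) :
    ContDiff ℝ ∞ (fs c s₁ s₂ i j x) := by
  have a1 : ContDiff ℝ ∞ fun z : VV n => t1 c s₁ x i j z.1 := (t1_sm c h₁ x i j).comp contDiff_fst
  have a2 : ContDiff ℝ ∞ fun z : VV n => t1 c s₂ x i j z.2 := (t1_sm c h₂ x i j).comp contDiff_snd
  exact (contDiff_const.mul (a1.add a2)).sub contDiff_const

theorem fd_sm (h₁ : ∀ x i j, ContDiff ℝ ∞ fun w => s₁ x w i j)
    (h₂ : ∀ x i j, ContDiff ℝ ∞ fun w => s₂ x w i j) (x : α) (i j : Fin n) :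
    ContDiff ℝ ∞ (fd c s₁ s₂ i j x) := by
  have a1 : ContDiff ℝ ∞ fun z : VV n => t1 c s₁ x i j z.1 := (t1_sm c h₁ x i j).comp contDiff_fst
  have a2 : ContDiff ℝ ∞ fun z : VV n => t1 c s₂ x i j z.2 := (t1_sm c h₂ x i j).comp contDiff_snd
  exact contDiff_const.mul (a1.sub a2)

/-- **The structure `Hs` of the slots for the family of cells.** -/
theorem hs_cf (h₁ : ∀ x i j, ContDiff ℝ ∞ fun w => s₁ x w i j)
    (h₂ : ∀ x i j, ContDiff ℝ ∞ fun w => s₂ x w i j)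
    (y₁ : ∀ x w i j, s₁ x w i j = s₁ x w j i) (y₂ : ∀ x w i j, s₂ x w i j = s₂ x w j i) :
    Hs (Gf c Z hZ) (fs c s₁ s₂) (fd c s₁ s₂) where
  ss i j x := (fs_sm c h₁ h₂ x i j).contDiffOn
  sd i j x := (fd_sm c h₁ h₂ x i j).contDiffOn
  ys i j x z := by
    have e1 := t1_symm c y₁ x i j z.1
    have e2 := t1_symm c y₂ x i j z.2
    show 1 / 2 * (t1 c s₁ x i j z.1 + t1 c s₂ x i j z.2) - (if i = j then (1 : ℝ) else 0) =
      1 / 2 * (t1 c s₁ x j i z.1 + t1 c s₂ x j i z.2) - if j = i then (1 : ℝ) else 0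
    rw [e1, e2]
    simp only [eq_comm]
  yd i j x z := by
    have e1 := t1_symm c y₁ x i j z.1
    have e2 := t1_symm c y₂ x i j z.2
    show 1 / 2 * (t1 c s₁ x i j z.1 - t1 c s₂ x i j z.2) =
      1 / 2 * (t1 c s₁ x j i z.1 - t1 c s₂ x j i z.2)
    rw [e1, e2]
  xy x z _ i k l := by
    rw [dx_eq, sY_eq]
    exact fd_snd (t1_sm c h₂ x k l) z _
  yx x z _ i k l := by
    rw [dy_eq, sX_eq]
    exact fd_fst (t1_sm c h₁ x k l) z _

end Vale.Agent.P088.R2.H942.B1
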